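import Mathlib

/-!
# P205 / Killing, module Q2: a lattice vector in the direction `w` extends to a basis of the lattice

FROZEN STATEMENTS (proved, helper4 17:13Z).

ROUTE for `exists_basis`: `g = Int.gcd m n ≠ 0`, `c = m / g`, `d = n / g` are coprime
(`Int.isCoprime_iff_gcd_eq_one`, `Int.gcd_div_gcd_div_gcd` ...), Bezout `x * c + y * d = 1`;
take `a = y`, `b = -x`, `r = t / g`.
ROUTE for `periodic_combo`: induction on integers (`Int.induction_on`) for one vector, then combine.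
-/

namespace Vale.Agent.Lib.P205.Killing

theorem exists_basis (v₁ v₂ w : ℝ × ℝ) (m n : ℤ) (hmn : m ≠ 0 ∨ n ≠ 0) (t : ℝ)
    (ht : t • w = (m : ℝ) • v₁ + (n : ℝ) • v₂) :
    ∃ (a b c d : ℤ) (r : ℝ), a * d - b * c = 1 ∧ (c : ℝ) • v₁ + (d : ℝ) • v₂ = r • w := by
  have hg0 : (Int.gcd m n : ℤ) ≠ 0 := by
    intro h
    have h' : Int.gcd m n = 0 := by exact_mod_cast h
    rw [Int.gcd_eq_zero_iff] at h'
    rcases hmn with h1 | h1
    · exact h1 h'.1
    · exact h1 h'.2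
  obtain ⟨c, hc⟩ : (Int.gcd m n : ℤ) ∣ m := Int.gcd_dvd_left m n
  obtain ⟨d, hd⟩ : (Int.gcd m n : ℤ) ∣ n := Int.gcd_dvd_right m n
  have hbez : (Int.gcd m n : ℤ) = m * Int.gcdA m n + n * Int.gcdB m n := Int.gcd_eq_gcd_ab m n
  set g : ℤ := (Int.gcd m n : ℤ) with hgdef
  have h1 : c * Int.gcdA m n + d * Int.gcdB m n = 1 := by
    have : g * (c * Int.gcdA m n + d * Int.gcdB m n) = g * 1 := by
      calc g * (c * Int.gcdA m n + d * Int.gcdB m n)
          = (g * c) * Int.gcdA m n + (g * d) * Int.gcdB m n := by ring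
        _ = m * Int.gcdA m n + n * Int.gcdB m n := by rw [← hc, ← hd]
        _ = g * 1 := by rw [← hbez]; ring
    exact mul_left_cancel₀ hg0 this
  have hgR : (g : ℝ) ≠ 0 := by exact_mod_cast hg0
  refine ⟨Int.gcdB m n, -Int.gcdA m n, c, d, t / g, by linarith [h1, mul_comm (Int.gcdB m n) d, mul_comm (Int.gcdA m n) c], ?_⟩
  have hmR : (m : ℝ) = (g : ℝ) * c := by exact_mod_cast hc
  have hnR : (n : ℝ) = (g : ℝ) * d := by exact_mod_cast hd
  have : (t / g) • w = (1 / (g : ℝ)) • (t • w) := by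
    rw [smul_smul]; congr 1; ring
  rw [this, ht, hmR, hnR, smul_add, smul_smul, smul_smul]
  congr 1
  · congr 1; field_simp
  · congr 1; field_simp

theorem periodic_one {α : Type*} (f : ℝ × ℝ → α) (v : ℝ × ℝ) (h : ∀ p, f (p + v) = f p)
    (a : ℤ) : ∀ p : ℝ × ℝ, f (p + (a : ℝ) • v) = f p := by
  induction a using Int.induction_on with
  | zero => intro p; simp
  | succ k ih =>
    intro p
    have : p + (((k : ℤ) + 1 : ℤ) : ℝ) • v = (p + ((k : ℤ) : ℝ) • v) + v := by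
      push_cast
      rw [add_smul, one_smul, add_assoc]
    rw [this, h, ih]
  | pred k ih =>
    intro p
    have : p + ((-(k : ℤ) : ℤ) : ℝ) • v = (p + ((-(k : ℤ) - 1 : ℤ) : ℝ) • v) + v := by
      push_cast
      rw [sub_smul, one_smul, add_assoc, sub_add_cancel]
    rw [← ih p, this, h]

theorem periodic_combo {α : Type*} (f : ℝ × ℝ → α) (v₁ v₂ : ℝ × ℝ) (h₁ : ∀ p, f (p + v₁) = f p)
    (h₂ : ∀ p, f (p + v₂) = f p) (a b : ℤ) (p : ℝ × ℝ) :
    f (p + ((a : ℝ) • v₁ + (b : ℝ) • v₂)) = f p := by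
  rw [← add_assoc, periodic_one f v₂ h₂ b, periodic_one f v₁ h₁ a]

end Vale.Agent.Lib.P205.Killing
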