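import Mathlib

/-!
# P205 / Killing, module Q3: irrational direction => the function is constant

FROZEN STATEMENT (filled by helper24).

ROUTE.  `ℓ p = p.1 * w.2 - p.2 * w.1` (kernel `ℝ w`), `N = w.1 ^ 2 + w.2 ^ 2 > 0`,
`c = (w.2 / N, - w.1 / N)`, `ℓ c = 1`, and `p - ℓ p • c = t • w` with `t = (p.1 * w.1 + p.2 * w.2) / N`.
So `f p = e (ℓ p)` with `e s = f (s • c)` continuous, `e (s + α) = e s`, `e (s + β) = e s` for
`α = ℓ v₁`, `β = ℓ v₂` (`(s + α) • c` and `s • c + v₁` differ by a multiple of `w`).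
`hirr` says `m α + n β = 0 → m = n = 0` (if `ℓ (m v₁ + n v₂) = 0` then `m v₁ + n v₂ = t • w`).
Hence `β ≠ 0` and `α / β` is irrational, the subgroup `ℤ α + ℤ β` is dense in `ℝ`
(`AddSubgroup.dense_or_cyclic`, or `dense_addSubgroupClosure_pair_iff` if it exists), `e` is invariant
under it and continuous, hence constant (`Continuous.ext_on` / `DenseRange.equalizer`,
or: `{s | e s = e 0}` is closed and contains a dense set).
-/

namespace Vale.Agent.Lib.P205.Killing

theorem const_of_irrational (v₁ v₂ w : ℝ × ℝ) (hw : w ≠ 0)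
    (hirr : ∀ (m n : ℤ) (t : ℝ), t • w = (m : ℝ) • v₁ + (n : ℝ) • v₂ → m = 0 ∧ n = 0)
    (f : ℝ × ℝ → ℝ) (hf : Continuous f) (h₁ : ∀ p, f (p + v₁) = f p) (h₂ : ∀ p, f (p + v₂) = f p)
    (hinv : ∀ (p : ℝ × ℝ) (t : ℝ), f (p + t • w) = f p) : ∀ p q, f p = f q := by
  obtain ⟨w1, w2⟩ := w
  obtain ⟨a1, a2⟩ := v₁
  obtain ⟨b1, b2⟩ := v₂
  have hN : 0 < w1 ^ 2 + w2 ^ 2 := by
    by_contra h
    have h1 : w1 = 0 := by nlinarith [sq_nonneg w1, sq_nonneg w2]
    have h2 : w2 = 0 := by nlinarith [sq_nonneg w1, sq_nonneg w2]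
    exact hw (by simp [h1, h2])
  have hN0 : w1 ^ 2 + w2 ^ 2 ≠ 0 := hN.ne'
  -- a vector killed by `ℓ` is a multiple of `w`
  have mult : ∀ d1 d2 : ℝ, d1 * w2 - d2 * w1 = 0 →
      ((d1 * w1 + d2 * w2) / (w1 ^ 2 + w2 ^ 2)) • ((w1, w2) : ℝ × ℝ) = (d1, d2) := by
    intro d1 d2 h
    ext
    · simp only [Prod.smul_mk, smul_eq_mul]
      field_simp
      linear_combination (-w2) * h
    · simp only [Prod.smul_mk, smul_eq_mul]
      field_simp
      linear_combination w1 * h
  -- same `ℓ` => same `f`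
  have key : ∀ p q : ℝ × ℝ, p.1 * w2 - p.2 * w1 = q.1 * w2 - q.2 * w1 → f p = f q := by
    intro p q h
    have h0 : (p.1 - q.1) * w2 - (p.2 - q.2) * w1 = 0 := by linear_combination h
    have h3 := mult _ _ h0
    have h4 : p = q + (((p.1 - q.1) * w1 + (p.2 - q.2) * w2) / (w1 ^ 2 + w2 ^ 2)) •
        ((w1, w2) : ℝ × ℝ) := by
      rw [h3]
      ext <;> simp
    rw [h4, hinv]
  -- the reduced function
  set c : ℝ × ℝ := (w2 / (w1 ^ 2 + w2 ^ 2), - w1 / (w1 ^ 2 + w2 ^ 2)) with hc
  have hlc : ∀ s : ℝ, (s • c).1 * w2 - (s • c).2 * w1 = s := by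
    intro s
    simp only [hc, Prod.smul_mk, smul_eq_mul]
    field_simp
    ring
  set e : ℝ → ℝ := fun s => f (s • c) with he
  have hec : Continuous e := hf.comp (continuous_id.smul continuous_const)
  have hfe : ∀ p : ℝ × ℝ, f p = e (p.1 * w2 - p.2 * w1) := by
    intro p
    exact key _ _ (hlc _).symm
  -- the period subgroup
  let P : AddSubgroup ℝ :=
    { carrier := {a | ∀ s, e (s + a) = e s}
      zero_mem' := by intro s; simp
      add_mem' := by
        intro a b ha hb s
        rw [← add_assoc, hb, ha]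
      neg_mem' := by
        intro a ha s
        have := ha (s + -a)
        rw [neg_add_cancel_right] at this
        exact this.symm }
  have hPmem : ∀ a, a ∈ P ↔ ∀ s, e (s + a) = e s := fun a => Iff.rfl
  have hα : (a1 * w2 - a2 * w1) ∈ P := by
    rw [hPmem]
    intro s
    have h5 : f ((s + (a1 * w2 - a2 * w1)) • c) = f (s • c + (a1, a2)) := by
      apply key
      rw [hlc]
      have := hlc s
      simp only [Prod.fst_add, Prod.snd_add]
      linear_combination (-1 : ℝ) * this
    simp only [he]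
    rw [h5, h₁]
  have hβ : (b1 * w2 - b2 * w1) ∈ P := by
    rw [hPmem]
    intro s
    have h5 : f ((s + (b1 * w2 - b2 * w1)) • c) = f (s • c + (b1, b2)) := by
      apply key
      rw [hlc]
      have := hlc s
      simp only [Prod.fst_add, Prod.snd_add]
      linear_combination (-1 : ℝ) * this
    simp only [he]
    rw [h5, h₂]
  have hirr' : ∀ m n : ℤ, (m : ℝ) * (a1 * w2 - a2 * w1) + (n : ℝ) * (b1 * w2 - b2 * w1) = 0 →
      m = 0 ∧ n = 0 := by
    intro m n h
    have h0 : ((m : ℝ) * a1 + (n : ℝ) * b1) * w2 - ((m : ℝ) * a2 + (n : ℝ) * b2) * w1 = 0 := by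
      linear_combination h
    have h3 := mult _ _ h0
    refine hirr m n _ (h3.trans ?_)
    ext <;> simp
  have hdense : Dense (P : Set ℝ) := by
    rcases AddSubgroup.dense_or_cyclic P with h | ⟨a, ha⟩
    · exact h
    · exfalso
      rw [ha] at hα hβ
      obtain ⟨m, hm⟩ := AddSubgroup.mem_closure_singleton.1 hα
      obtain ⟨n, hn⟩ := AddSubgroup.mem_closure_singleton.1 hβ
      simp only [zsmul_eq_mul] at hm hn
      have h6 := hirr' n (-m) (by
        rw [← hm, ← hn]
        push_cast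
        ring)
      have hn0 : n = 0 := h6.1
      have hm0 : m = 0 := by have := h6.2; omega
      have h7 := hirr' 1 0 (by
        rw [← hm, hm0]
        simp)
      exact one_ne_zero h7.1
  have hconst : ∀ s, e s = e 0 := by
    have hcl : IsClosed {s | e s = e 0} := isClosed_eq hec continuous_const
    have hsub : (P : Set ℝ) ⊆ {s | e s = e 0} := by
      intro a ha
      have := (hPmem a).1 ha 0
      simpa using this
    have := hdense.mono hsub
    intro s
    have h8 : s ∈ closure {s | e s = e 0} := this s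
    rw [hcl.closure_eq] at h8
    exact h8
  intro p q
  rw [hfe p, hfe q, hconst, hconst (q.1 * w2 - q.2 * w1)]

end Vale.Agent.Lib.P205.Killing
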