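import Mathlib
import Vale.Agent.Lib.P205.Twist.Main

/-!
# P205 / Killing, module Q1: pull-back of `twisted_main` by a linear change of coordinates

FROZEN STATEMENTS (do not change them; fill the sorries; private helper lemmas are welcome).

ROUTE for `pullback_main`.  `D = u₁.1 * u₂.2 - u₁.2 * u₂.1`.  One-variable coefficients
`E' x = quad (x • u₁) u₁ u₁`, `M' x = quad (x • u₁) u₁ u₂`, `G' x = quad (x • u₁) u₂ u₂`, where
`quad p v u = E p * v.1 * u.1 + M p * (v.1 * u.2 + v.2 * u.1) + G p * v.2 * u.2`.  They are smooth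
(composition with `x ↦ x • u₁`), `1`-periodic (`(x + 1) • u₁ = x • u₁ + u₁`, `hper`), `G' > 0`
(`quad_self_pos`, `u₂ ≠ 0` because `D ≠ 0`), `E' G' - M' ^ 2 = (E G - M ^ 2) D ^ 2 > 0` (`ring`).
`twisted_main 1 1 0` gives `F'`.  Let `Λ : ℝ × ℝ →L[ℝ] ℝ × ℝ`,
`Λ p = ((p.1 * u₂.2 - p.2 * u₂.1) / D, (p.2 * u₁.1 - p.1 * u₁.2) / D)`, so that
`p = (Λ p).1 • u₁ + (Λ p).2 • u₂`, `Λ u₁ = (1, 0)`, `Λ u₂ = (0, 1)`.  `F = F' ∘ Λ`.
`fderiv ℝ F p v = fderiv ℝ F' (Λ p) (Λ v)` (`fderiv_comp`, `ContinuousLinearMap.fderiv`; `F'` is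
differentiable since it is smooth).  `E ((Λ p).1 • u₁) = E p` by `hinv` with `t = (Λ p).2`.
The final identity is `field_simp; ring` after writing `v`, `u` through `Λ v`, `Λ u`.
-/

namespace Vale.Agent.Lib.P205.Killing

open scoped ContDiff

theorem quad_self_pos (e m g : ℝ) (hg : 0 < g) (hdet : 0 < e * g - m ^ 2) (u : ℝ × ℝ) (hu : u ≠ 0) :
    0 < e * u.1 * u.1 + m * (u.1 * u.2 + u.2 * u.1) + g * u.2 * u.2 := by
  have key : g * (e * u.1 * u.1 + m * (u.1 * u.2 + u.2 * u.1) + g * u.2 * u.2)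
      = (g * u.2 + m * u.1) ^ 2 + (e * g - m ^ 2) * u.1 ^ 2 := by ring
  have hpos : 0 < (g * u.2 + m * u.1) ^ 2 + (e * g - m ^ 2) * u.1 ^ 2 := by
    by_cases h1 : u.1 = 0
    · have h2 : u.2 ≠ 0 := by
        intro h2
        exact hu (Prod.ext h1 h2)
      rw [h1]
      have : 0 < (g * u.2) ^ 2 := by positivity
      simpa using this
    · have : 0 < (e * g - m ^ 2) * u.1 ^ 2 := by positivity
      have h3 : 0 ≤ (g * u.2 + m * u.1) ^ 2 := sq_nonneg _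
      linarith
  rw [← key] at hpos
  exact (pos_iff_pos_of_mul_pos hpos).1 hg

theorem pullback_main (u₁ u₂ : ℝ × ℝ) (hD : u₁.1 * u₂.2 - u₁.2 * u₂.1 ≠ 0)
    (E M G : ℝ × ℝ → ℝ) (hE : ContDiff ℝ ∞ E) (hM : ContDiff ℝ ∞ M) (hG : ContDiff ℝ ∞ G)
    (hGpos : ∀ p, 0 < G p) (hdet : ∀ p, 0 < E p * G p - M p ^ 2)
    (hper : ∀ p, E (p + u₁) = E p ∧ M (p + u₁) = M p ∧ G (p + u₁) = G p)
    (hinv : ∀ (p : ℝ × ℝ) (t : ℝ),
      E (p + t • u₂) = E p ∧ M (p + t • u₂) = M p ∧ G (p + t • u₂) = G p) :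
    ∃ F : ℝ × ℝ → EuclideanSpace ℝ (Fin 4), ContDiff ℝ ∞ F ∧
      (∀ p, F (p + u₁) = F p) ∧ (∀ p, F (p + u₂) = F p) ∧
      ∀ p v u : ℝ × ℝ, inner ℝ (fderiv ℝ F p v) (fderiv ℝ F p u)
        = E p * v.1 * u.1 + M p * (v.1 * u.2 + v.2 * u.1) + G p * v.2 * u.2 := by
  obtain ⟨D, hDdef⟩ : ∃ D, D = u₁.1 * u₂.2 - u₁.2 * u₂.1 := ⟨_, rfl⟩
  have hD0 : D ≠ 0 := by rw [hDdef]; exact hD
  have hu₂ : u₂ ≠ 0 := by
    rintro rfl
    simp at hD
  let E' : ℝ → ℝ := fun x => E (x • u₁) * u₁.1 * u₁.1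
    + M (x • u₁) * (u₁.1 * u₁.2 + u₁.2 * u₁.1) + G (x • u₁) * u₁.2 * u₁.2
  let M' : ℝ → ℝ := fun x => E (x • u₁) * u₁.1 * u₂.1
    + M (x • u₁) * (u₁.1 * u₂.2 + u₁.2 * u₂.1) + G (x • u₁) * u₁.2 * u₂.2
  let G' : ℝ → ℝ := fun x => E (x • u₁) * u₂.1 * u₂.1
    + M (x • u₁) * (u₂.1 * u₂.2 + u₂.2 * u₂.1) + G (x • u₁) * u₂.2 * u₂.2
  have hl : ContDiff ℝ ∞ (fun x : ℝ => x • u₁) := contDiff_id.smul contDiff_const
  have cE := hE.comp hl
  have cM := hM.comp hl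
  have cG := hG.comp hl
  have hE' : ContDiff ℝ ∞ E' :=
    (((cE.mul contDiff_const).mul contDiff_const).add (cM.mul contDiff_const)).add
      ((cG.mul contDiff_const).mul contDiff_const)
  have hM' : ContDiff ℝ ∞ M' :=
    (((cE.mul contDiff_const).mul contDiff_const).add (cM.mul contDiff_const)).add
      ((cG.mul contDiff_const).mul contDiff_const)
  have hG' : ContDiff ℝ ∞ G' :=
    (((cE.mul contDiff_const).mul contDiff_const).add (cM.mul contDiff_const)).add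
      ((cG.mul contDiff_const).mul contDiff_const)
  have hG'pos : ∀ x, 0 < G' x := fun x =>
    quad_self_pos _ _ _ (hGpos (x • u₁)) (hdet (x • u₁)) u₂ hu₂
  have hdet' : ∀ x, 0 < E' x * G' x - M' x ^ 2 := by
    intro x
    have e1 : E' x * G' x - M' x ^ 2
        = (E (x • u₁) * G (x • u₁) - M (x • u₁) ^ 2) * (u₁.1 * u₂.2 - u₁.2 * u₂.1) ^ 2 := by
      simp only [E', M', G']
      ring
    rw [e1]
    have := hdet (x • u₁)
    positivity
  have hshift : ∀ x : ℝ, (x + 1) • u₁ = x • u₁ + u₁ := fun x => by rw [add_smul, one_smul]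
  have hEper : Function.Periodic E' 1 := by
    intro x
    simp only [E']
    rw [hshift, (hper _).1, (hper _).2.1, (hper _).2.2]
  have hMper : Function.Periodic M' 1 := by
    intro x
    simp only [M']
    rw [hshift, (hper _).1, (hper _).2.1, (hper _).2.2]
  have hGper : Function.Periodic G' 1 := by
    intro x
    simp only [G']
    rw [hshift, (hper _).1, (hper _).2.1, (hper _).2.2]
  obtain ⟨F', hF', hp1, hp2, hmet⟩ := twisted_main 1 1 0 one_pos one_pos E' M' G' hE' hM' hG'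
    hG'pos hdet' hEper hMper hGper
  let Λ : ℝ × ℝ →L[ℝ] ℝ × ℝ :=
    ((u₂.2 / D) • ContinuousLinearMap.fst ℝ ℝ ℝ - (u₂.1 / D) • ContinuousLinearMap.snd ℝ ℝ ℝ).prod
      ((u₁.1 / D) • ContinuousLinearMap.snd ℝ ℝ ℝ - (u₁.2 / D) • ContinuousLinearMap.fst ℝ ℝ ℝ)
  have hΛ1 : ∀ p, (Λ p).1 = (p.1 * u₂.2 - p.2 * u₂.1) / D := by
    intro p
    simp [Λ]
    ring
  have hΛ2 : ∀ p, (Λ p).2 = (p.2 * u₁.1 - p.1 * u₁.2) / D := by
    intro p
    simp [Λ]
    ring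
  have hc1 : ∀ p : ℝ × ℝ, p.1 = (Λ p).1 * u₁.1 + (Λ p).2 * u₂.1 := by
    intro p
    rw [hΛ1, hΛ2]
    have : p.1 * D = (p.1 * u₂.2 - p.2 * u₂.1) * u₁.1 + (p.2 * u₁.1 - p.1 * u₁.2) * u₂.1 := by
      rw [hDdef]; ring
    field_simp
    linarith
  have hc2 : ∀ p : ℝ × ℝ, p.2 = (Λ p).1 * u₁.2 + (Λ p).2 * u₂.2 := by
    intro p
    rw [hΛ1, hΛ2]
    have : p.2 * D = (p.1 * u₂.2 - p.2 * u₂.1) * u₁.2 + (p.2 * u₁.1 - p.1 * u₁.2) * u₂.2 := by
      rw [hDdef]; ring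
    field_simp
    linarith
  have hdec : ∀ p : ℝ × ℝ, p = (Λ p).1 • u₁ + (Λ p).2 • u₂ := by
    intro p
    apply Prod.ext
    · simpa using hc1 p
    · simpa using hc2 p
  have hΛu₁ : Λ u₁ = (1, 0) := by
    apply Prod.ext
    · rw [hΛ1, hDdef]; simp only; field_simp
    · rw [hΛ2, hDdef]; simp only; ring
  have hΛu₂ : Λ u₂ = (0, 1) := by
    apply Prod.ext
    · rw [hΛ1, hDdef]; simp only; ring
    · rw [hΛ2, hDdef]; simp only
      have : u₂.2 * u₁.1 - u₂.1 * u₁.2 = u₁.1 * u₂.2 - u₁.2 * u₂.1 := by ring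
      rw [this]; field_simp
  refine ⟨F' ∘ Λ, hF'.comp Λ.contDiff, ?_, ?_, ?_⟩
  · intro p
    show F' (Λ (p + u₁)) = F' (Λ p)
    rw [map_add, hΛu₁]
    have := hp1 (Λ p)
    have e : Λ p + (1, 0) = ((Λ p).1 + 1, (Λ p).2 + 0) := rfl
    rw [e]; exact this
  · intro p
    show F' (Λ (p + u₂)) = F' (Λ p)
    rw [map_add, hΛu₂]
    have := hp2 (Λ p)
    have e : Λ p + (0, 1) = ((Λ p).1, (Λ p).2 + 1) := by
      apply Prod.ext <;> simp
    rw [e]; exact this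
  · intro p v u
    have hdF : DifferentiableAt ℝ F' (Λ p) := (hF'.differentiable (by simp)).differentiableAt
    have hfd : fderiv ℝ (F' ∘ Λ) p = (fderiv ℝ F' (Λ p)).comp Λ := by
      rw [fderiv_comp p hdF Λ.differentiableAt, ContinuousLinearMap.fderiv]
    rw [hfd]
    simp only [ContinuousLinearMap.comp_apply]
    rw [hmet (Λ p) (Λ v) (Λ u)]
    have hEp : E ((Λ p).1 • u₁) = E p := by
      conv_rhs => rw [hdec p]
      exact ((hinv _ _).1).symm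
    have hMp : M ((Λ p).1 • u₁) = M p := by
      conv_rhs => rw [hdec p]
      exact ((hinv _ _).2.1).symm
    have hGp : G ((Λ p).1 • u₁) = G p := by
      conv_rhs => rw [hdec p]
      exact ((hinv _ _).2.2).symm
    simp only [E', M', G']
    rw [hEp, hMp, hGp]
    have hv1 := hc1 v
    have hv2 := hc2 v
    have hw1 := hc1 u
    have hw2 := hc2 u
    generalize (Λ v).1 = α at *
    generalize (Λ v).2 = β at *
    generalize (Λ u).1 = γ at *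
    generalize (Λ u).2 = δ at *
    rw [hv1, hv2, hw1, hw2]
    ring

end Vale.Agent.Lib.P205.Killing
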