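import Mathlib
import Vale.Agent.Lib.P205.Killing.Pull
import Vale.Agent.Lib.P205.Killing.Basis
import Vale.Agent.Lib.P205.Killing.Dense

/-! P205 / Killing: assembly.  Any lattice, any translation-invariant direction. -/

namespace Vale.Agent.Lib.P205.Killing

open scoped ContDiff

theorem killing_main (v₁ v₂ w : ℝ × ℝ) (hlat : v₁.1 * v₂.2 - v₁.2 * v₂.1 ≠ 0) (hw : w ≠ 0)
    (E M G : ℝ × ℝ → ℝ) (hE : ContDiff ℝ ∞ E) (hM : ContDiff ℝ ∞ M) (hG : ContDiff ℝ ∞ G)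
    (hGpos : ∀ p, 0 < G p) (hdet : ∀ p, 0 < E p * G p - M p ^ 2)
    (hper₁ : ∀ p, E (p + v₁) = E p ∧ M (p + v₁) = M p ∧ G (p + v₁) = G p)
    (hper₂ : ∀ p, E (p + v₂) = E p ∧ M (p + v₂) = M p ∧ G (p + v₂) = G p)
    (hinv : ∀ (p : ℝ × ℝ) (t : ℝ),
      E (p + t • w) = E p ∧ M (p + t • w) = M p ∧ G (p + t • w) = G p) :
    ∃ F : ℝ × ℝ → EuclideanSpace ℝ (Fin 4), ContDiff ℝ ∞ F ∧
      (∀ p, F (p + v₁) = F p) ∧ (∀ p, F (p + v₂) = F p) ∧
      ∀ p v u : ℝ × ℝ, inner ℝ (fderiv ℝ F p v) (fderiv ℝ F p u)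
        = E p * v.1 * u.1 + M p * (v.1 * u.2 + v.2 * u.1) + G p * v.2 * u.2 := by
  by_cases h : ∃ (m n : ℤ) (t : ℝ), (m ≠ 0 ∨ n ≠ 0) ∧ t • w = (m : ℝ) • v₁ + (n : ℝ) • v₂
  · obtain ⟨m, n, t, hmn, ht⟩ := h
    obtain ⟨a, b, c, d, r, hdet1, hr⟩ := exists_basis v₁ v₂ w m n hmn t ht
    have h1 : (a : ℝ) * d - b * c = 1 := by exact_mod_cast hdet1
    obtain ⟨u₁, hu₁⟩ : ∃ u₁ : ℝ × ℝ, u₁ = (a : ℝ) • v₁ + (b : ℝ) • v₂ := ⟨_, rfl⟩
    obtain ⟨u₂, hu₂⟩ : ∃ u₂ : ℝ × ℝ, u₂ = (c : ℝ) • v₁ + (d : ℝ) • v₂ := ⟨_, rfl⟩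
    have hD : u₁.1 * u₂.2 - u₁.2 * u₂.1 ≠ 0 := by
      have h2 : u₁.1 * u₂.2 - u₁.2 * u₂.1
          = ((a : ℝ) * d - b * c) * (v₁.1 * v₂.2 - v₁.2 * v₂.1) := by
        rw [hu₁, hu₂]
        simp only [Prod.fst_add, Prod.snd_add, Prod.smul_fst, Prod.smul_snd, smul_eq_mul]
        ring
      rw [h2, h1, one_mul]
      exact hlat
    have hper : ∀ p, E (p + u₁) = E p ∧ M (p + u₁) = M p ∧ G (p + u₁) = G p := by
      intro p
      rw [hu₁]
      exact ⟨periodic_combo E v₁ v₂ (fun p => (hper₁ p).1) (fun p => (hper₂ p).1) a b p,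
        periodic_combo M v₁ v₂ (fun p => (hper₁ p).2.1) (fun p => (hper₂ p).2.1) a b p,
        periodic_combo G v₁ v₂ (fun p => (hper₁ p).2.2) (fun p => (hper₂ p).2.2) a b p⟩
    have hinv' : ∀ (p : ℝ × ℝ) (t : ℝ),
        E (p + t • u₂) = E p ∧ M (p + t • u₂) = M p ∧ G (p + t • u₂) = G p := by
      intro p t
      rw [hu₂, hr, smul_smul]
      exact hinv p (t * r)
    obtain ⟨F, hF, hF1, hF2, hFm⟩ :=
      pullback_main u₁ u₂ hD E M G hE hM hG hGpos hdet hper hinv'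
    refine ⟨F, hF, ?_, ?_, hFm⟩
    · intro p
      have hv : v₁ = ((d : ℤ) : ℝ) • u₁ + ((-b : ℤ) : ℝ) • u₂ := by
        rw [hu₁, hu₂]
        ext
        · simp only [Prod.fst_add, Prod.smul_fst, smul_eq_mul, Int.cast_neg]
          linear_combination (-v₁.1) * h1
        · simp only [Prod.snd_add, Prod.smul_snd, smul_eq_mul, Int.cast_neg]
          linear_combination (-v₁.2) * h1
      have h3 := periodic_combo F u₁ u₂ hF1 hF2 d (-b) p
      rw [← hv] at h3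
      exact h3
    · intro p
      have hv : v₂ = ((-c : ℤ) : ℝ) • u₁ + ((a : ℤ) : ℝ) • u₂ := by
        rw [hu₁, hu₂]
        ext
        · simp only [Prod.fst_add, Prod.smul_fst, smul_eq_mul, Int.cast_neg]
          linear_combination (-v₂.1) * h1
        · simp only [Prod.snd_add, Prod.smul_snd, smul_eq_mul, Int.cast_neg]
          linear_combination (-v₂.2) * h1
      have h3 := periodic_combo F u₁ u₂ hF1 hF2 (-c) a p
      rw [← hv] at h3
      exact h3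
  · have hirr : ∀ (m n : ℤ) (t : ℝ), t • w = (m : ℝ) • v₁ + (n : ℝ) • v₂ → m = 0 ∧ n = 0 := by
      intro m n t ht
      by_contra hcon
      apply h
      refine ⟨m, n, t, ?_, ht⟩
      by_contra h4
      push Not at h4
      exact hcon h4
    have cE := const_of_irrational v₁ v₂ w hw hirr E hE.continuous (fun p => (hper₁ p).1)
      (fun p => (hper₂ p).1) (fun p t => (hinv p t).1)
    have cM := const_of_irrational v₁ v₂ w hw hirr M hM.continuous (fun p => (hper₁ p).2.1)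
      (fun p => (hper₂ p).2.1) (fun p t => (hinv p t).2.1)
    have cG := const_of_irrational v₁ v₂ w hw hirr G hG.continuous (fun p => (hper₁ p).2.2)
      (fun p => (hper₂ p).2.2) (fun p t => (hinv p t).2.2)
    exact pullback_main v₁ v₂ hlat E M G hE hM hG hGpos hdet hper₁
      (fun p t => ⟨cE _ _, cM _ _, cG _ _⟩)

end Vale.Agent.Lib.P205.Killing
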